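import Vale.Agent.P063.Main

open Vale.Agent.P063

theorem Vale.Agent.Results.P063.Width.result (r : ℕ) (hr : 2 ≤ r) (ε : ℝ) (h0 : 0 < ε)
    (h1 : ε < 1 / 2) :
    ∃ C : ℝ, ∀ n ≥ r, ∀ P : Set (Edge n r → Bool), IsProperty P → Increasing P → P.Nonempty →
      P ≠ Set.univ → width ε P ≤ C * Real.log n ^ (-((r : ℝ) / (r - 1))) :=
  Vale.Agent.P063.main r hr ε h0 h1
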